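import Crest.Agent.R177.Contract.Fib

/-! The obstruction cochain. -/

set_option autoImplicit false

namespace Crest.Agent.R177.ContractAux

open unitInterval Set

variable {Y : Type} [TopologicalSpace Y] {o : Y} {A : Type} [AddCommGroup A]

theorem homotopic_congr {Z : Type*} [TopologicalSpace Z] {x y x' y' : Z} {p q : Path x y}
    {p' q' : Path x' y'} (h : p.Homotopic q) (hp : ∀ t, p t = p' t) (hq : ∀ t, q t = q' t) :
    p'.Homotopic q' := by
  obtain rfl : x = x' := p.source.symm.trans ((hp 0).trans p'.source)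
  obtain rfl : y = y' := p.target.symm.trans ((hp 1).trans p'.target)
  obtain rfl : p = p' := Path.ext (funext hp)
  obtain rfl : q = q' := Path.ext (funext hq)
  exact h

theorem trans_congr {Z : Type*} [TopologicalSpace Z] {x y z x' y' z' : Z} {p : Path x y}
    {q : Path y z} {p' : Path x' y'} {q' : Path y' z'} (hp : ∀ t, p t = p' t)
    (hq : ∀ t, q t = q' t) (t : I) : (p.trans q) t = (p'.trans q') t := by
  simp only [Path.trans_apply, hp, hq]

/-- the properties of the invariant `J` -/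
structure JData (J : ∀ ω ω' : Path o o, Path ω ω' → A) : Prop where
  trans : ∀ ω ω' ω'' (p : Path ω ω') (q : Path ω' ω''),
    J ω ω'' (p.trans q) = J ω ω' p + J ω' ω'' q
  homot : ∀ ω ω' (p q : Path ω ω'), p.Homotopic q → J ω ω' p = J ω ω' q
  free : ∀ ω ω' (p : Path ω ω) (q : Path ω' ω') (H : C(I × I, Path o o)),
    (∀ t, H (0, t) = p t) → (∀ t, H (1, t) = q t) → (∀ s, H (s, 0) = H (s, 1)) →
    J ω ω p = J ω' ω' q
  null : ∀ ω (p : Path ω ω), Joined (Path.refl o) ω → J ω ω p = 0 → p.Homotopic (Path.refl ω)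
  surj : ∀ a : A, ∃ p : Path (Path.refl o) (Path.refl o), J _ _ p = a

/-- `J` of a path given without end points -/
def Jc (J : ∀ ω ω' : Path o o, Path ω ω' → A) (p : C(I, Path o o)) : A :=
  J (p 0) (p 1) ⟨p, rfl, rfl⟩

variable {J : ∀ ω ω' : Path o o, Path ω ω' → A}

omit [AddCommGroup A] in
theorem Jc_path {ω ω' : Path o o} (q : Path ω ω') (p : C(I, Path o o)) (h : ∀ t, p t = q t) :
    Jc J p = J ω ω' q := by
  obtain ⟨q, rfl, rfl⟩ := q
  obtain rfl : p = q := ContinuousMap.ext h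
  rfl

theorem JData.refl (hJ : JData J) (ω : Path o o) : J ω ω (Path.refl ω) = 0 := by
  have := hJ.trans _ _ _ (Path.refl ω) (Path.refl ω)
  rw [Path.refl_trans_refl] at this
  simpa using this

theorem JData.symm (hJ : JData J) {ω ω' : Path o o} (p : Path ω ω') :
    J ω' ω p.symm = -J ω ω' p := by
  have := hJ.homot _ _ _ _ (Path.Homotopic.trans_symm p)
  rw [hJ.trans, hJ.refl] at this
  exact eq_neg_of_add_eq_zero_right this

/-- left multiplication by a fixed path -/
noncomputable def pre {y : Y} (ν : Path o y) : C(Path y o, Path o o) :=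
  ⟨fun γ => ν.trans γ, continuous_const.path_trans continuous_id⟩

theorem JData.pre_congr (hJ : JData J) {y : Y} {ν ν' : Path o y} (h : ν.Homotopic ν')
    {γ : Path y o} (a : Path γ γ) :
    J _ _ (a.map (pre ν).continuous) = J _ _ (a.map (pre ν').continuous) := by
  obtain ⟨k⟩ := exists_path_of_homotopic h
  refine hJ.free _ _ _ _ ⟨fun w => (k w.1).trans (a w.2),
    (k.continuous.comp continuous_fst).path_trans (a.continuous.comp continuous_snd)⟩
    (fun t => ?_) (fun t => ?_) (fun s => ?_)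
  · show (k 0).trans (a t) = ν.trans (a t)
    rw [k.source]
  · show (k 1).trans (a t) = ν'.trans (a t)
    rw [k.target]
  · show (k s).trans (a 0) = (k s).trans (a 1)
    rw [a.source, a.target]

theorem JData.pre_surj (hJ : JData J) {y : Y} (γ : Path y o) (α : A) :
    ∃ a : Path γ γ, J _ _ (a.map (pre γ.symm).continuous) = α := by
  obtain ⟨p, hp⟩ := hJ.surj α
  obtain ⟨k⟩ := exists_path_of_homotopic (Path.Homotopic.trans_refl γ).symm
  let m : C(Path o o, Path y o) :=
    ⟨fun ω => γ.trans ω, continuous_const.path_trans continuous_id⟩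
  refine ⟨k.trans ((p.map m.continuous).trans k.symm), ?_⟩
  rw [Path.map_trans, Path.map_trans, hJ.trans, hJ.trans, ← Path.map_symm, hJ.symm,
    add_comm, ← hp]
  refine (neg_add_cancel_right _ _).trans ?_
  obtain ⟨K, K0, Ks, Kt, K1⟩ := exists_K (A := Path o o)
    (ContinuousMap.const _ γ.symm.toContinuousMap)
    (ContinuousMap.curry ⟨fun w : Path o o × I => w.1 w.2,
      Path.continuous_uncurry_iff.2 continuous_id⟩)
    (fun ω => γ.symm.source.trans ω.source.symm)
  let K' : C(I × Path o o, Path o o) := ⟨fun w => ⟨K w, (Ks _ _).trans w.2.source,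
    (Kt _ _).trans w.2.target⟩, Path.continuous_uncurry_iff.1 K.uncurry.continuous⟩
  symm
  refine hJ.free _ _ _ _ (K'.comp (ContinuousMap.fst.prodMk
    (p.toContinuousMap.comp ContinuousMap.snd))) (fun t => ?_) (fun t => ?_) (fun s => ?_)
  · exact Path.ext (funext fun τ => DFunLike.congr_fun (K0 (p t)) τ)
  · refine Path.ext (funext fun τ => ?_)
    have := K1 (p t) γ.symm (p t) (fun _ => rfl) (fun _ => rfl) τ
    rw [Path.symm_symm] at this
    exact this
  · exact congrArg (fun ω => K' (s, ω)) (p.source.trans p.target.symm)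

variable {F : C(I × I, Y)}

/-- If the obstruction vanishes the boundary section extends over the square. -/
theorem JData.triangle (hJ : JData J) (γ0 : Path (F (0, 0)) o) (a b d c : C(I, EF F o))
    (ha : ∀ s, (a s).1.1 = (s, 0)) (hb : ∀ s, (b s).1.1 = (1, s)) (hd : ∀ s, (d s).1.1 = (0, s))
    (hc : ∀ s, (c s).1.1 = (s, 1)) (e1 : d 0 = a 0) (e2 : b 0 = a 1) (e3 : c 0 = d 1)
    (e4 : c 1 = b 1) (h0 : ∀ t, (a 0).1.2 t = γ0 t)
    (hob : Jc J ((Phi γ0).comp a) + Jc J ((Phi γ0).comp b) - Jc J ((Phi γ0).comp d)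
      - Jc J ((Phi γ0).comp c) = 0) :
    ∃ S : C(I × I, C(I, Y)), (∀ x, S x 0 = F x) ∧ (∀ x, S x 1 = o) ∧
      (∀ s, S (s, 0) = (a s).1.2) ∧ (∀ s, S (1, s) = (b s).1.2) ∧ (∀ s, S (0, s) = (d s).1.2) ∧
      ∀ s, S (s, 1) = (c s).1.2 := by
  let pa : Path (a 0) (a 1) := ⟨a, rfl, rfl⟩
  let pb : Path (a 1) (b 1) := ⟨b, e2, rfl⟩
  let pd : Path (a 0) (d 1) := ⟨d, e1, rfl⟩
  let pc : Path (d 1) (b 1) := ⟨c, e3, e4⟩
  have hj : Joined (Path.refl o) (Phi γ0 (a 0)) := by
    apply exists_path_of_homotopic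
    have h1 := mu_homotopic γ0 (Path.refl _) γ0
      (homotopic_congr (Path.Homotopic.refl_trans γ0)
        (trans_congr (fun _ => rfl) fun _ => rfl) (fun _ => rfl))
    have h2 := ((h1.hcomp (Path.Homotopic.refl γ0)).trans (Path.Homotopic.symm_trans γ0)).symm
    refine homotopic_congr h2 (fun _ => rfl) (trans_congr (fun t => ?_) fun t => (h0 t).symm)
    rw [ha 0]
  have h1 : ((pa.trans pb).trans (pd.trans pc).symm).Homotopic (Path.refl _) := by
    apply phi_faithful γ0
    apply hJ.null _ _ hj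
    rw [Jc_path (pa.map (Phi γ0).continuous) ((Phi γ0).comp a) fun _ => rfl,
      Jc_path (pb.map (Phi γ0).continuous) ((Phi γ0).comp b) fun _ => rfl,
      Jc_path (pd.map (Phi γ0).continuous) ((Phi γ0).comp d) fun _ => rfl,
      Jc_path (pc.map (Phi γ0).continuous) ((Phi γ0).comp c) fun _ => rfl] at hob
    rw [Path.map_trans, ← Path.map_symm, Path.map_trans, Path.map_trans, hJ.trans, hJ.symm,
      hJ.trans, hJ.trans, ← hob]
    abel
  obtain ⟨G, g1, g2, g3, g4⟩ := square_fill pa pb pd pc (homotopic_of_loop h1)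
  obtain ⟨S, s0, s1, s2⟩ := exists_section_square G
  refine ⟨S, s0, s1, fun s => ?_, fun s => ?_, fun s => ?_, fun s => ?_⟩
  · rw [s2 _ (by rw [g1]; exact ha s), g1]; rfl
  · rw [s2 _ (by rw [g2]; exact hb s), g2]; rfl
  · rw [s2 _ (by rw [g3]; exact hd s), g3]; rfl
  · rw [s2 _ (by rw [g4]; exact hc s), g4]; rfl

/-- Modifying the section over an edge by a loop in the fibre. -/
theorem JData.edge (hJ : JData J) (ed : C(I, Y)) {y : Y} (hy : ed 0 = y) {γ : Path y o}
    (a : Path γ γ) (S0 : C(I, C(I, Y))) (h0 : ∀ s, S0 s 0 = ed s) (h1 : ∀ s, S0 s 1 = o)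
    (hs : S0 0 = γ.toContinuousMap) :
    ∃ (S : C(I, C(I, Y))) (k0 : ∀ s, S s 0 = ed s) (k1 : ∀ s, S s 1 = o),
      S 0 = S0 0 ∧ S 1 = S0 1 ∧
      ∀ (F : C(I × I, Y)) (γ0 : Path (F (0, 0)) o) (j : C(I, I × I)) (hj : ∀ s, ed s = F (j s))
        (k : Path ((0, 0) : I × I) (j 0)) (ν : Path (F (j 0)) o), (∀ t, ν t = γ t) →
        ((k.map F.continuous).trans ν).Homotopic γ0 →
        Jc J ((Phi γ0).comp (mkE j S (fun s => (k0 s).trans (hj s)) k1))
          = J _ _ (a.map (pre γ.symm).continuous)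
            + Jc J ((Phi γ0).comp (mkE j S0 (fun s => (h0 s).trans (hj s)) h1)) := by
  let Fe : C(I × I, Y) := ed.comp ContinuousMap.fst
  let P0c : C(I, EF Fe o) := mkE ⟨fun s => (s, 0), by fun_prop⟩ S0 h0 h1
  let P0 : Path (P0c 0) (P0c 1) := ⟨P0c, rfl, rfl⟩
  let Pac : C(I, EF Fe o) := mkE (ContinuousMap.const _ (0, 0))
    (ContinuousMap.curry ⟨fun w : I × I => a w.1 w.2,
      Path.continuous_uncurry_iff.2 a.continuous⟩) (fun t => (a t).source.trans hy.symm)
    (fun t => (a t).target)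
  have ea : ∀ t, a t = γ → Pac t = P0c 0 := fun t ht =>
    Subtype.ext (Prod.ext rfl ((congrArg Path.toContinuousMap ht).trans hs.symm))
  let Pa : Path (P0c 0) (P0c 0) := ⟨Pac, ea 0 a.source, ea 1 a.target⟩
  obtain ⟨P', hP, hb⟩ := exists_section_path (Pa.trans P0) rfl rfl
  have k0 : ∀ s, ((pathE Fe o).comp P'.toContinuousMap) s 0 = ed s := fun s =>
    (P' s).2.1.trans (congrArg Fe (hb s))
  refine ⟨(pathE Fe o).comp P'.toContinuousMap, k0, fun s => (P' s).2.2,
    congrArg (pathE Fe o) P'.source, congrArg (pathE Fe o) P'.target,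
    fun F γ0 j hj k ν hν hk => ?_⟩
  let inc : C(EF Fe o, EF F o) := mkE (j.comp (ContinuousMap.fst.comp (baseE Fe o))) (pathE Fe o)
    (fun z => z.2.1.trans (hj _)) (fun z => z.2.2)
  have h2 := hJ.homot _ _ _ _ (hP.map ((Phi γ0).comp inc))
  rw [Path.map_trans, hJ.trans] at h2
  have e1 : ∀ s, mkE j ((pathE Fe o).comp P'.toContinuousMap) (fun s => (k0 s).trans (hj s))
      (fun s => (P' s).2.2) s = inc (P' s) := fun s =>
    Subtype.ext (Prod.ext (congrArg (fun x : I × I => j x.1) (hb s).symm) rfl)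
  rw [Jc_path (P'.map ((Phi γ0).comp inc).continuous) _ (fun s => congrArg (Phi γ0) (e1 s)),
    Jc_path (P0.map ((Phi γ0).comp inc).continuous)
      ((Phi γ0).comp (mkE j S0 (fun s => (h0 s).trans (hj s)) h1)) (fun s => rfl), ← h2]
  congr 1
  have hy' : F (j 0) = y := (hj 0).symm.trans hy
  subst hy'
  obtain rfl : ν = γ := Path.ext (funext hν)
  rw [← hJ.pre_congr (mu_homotopic γ0 k ν hk) a,
    ← Jc_path (J := J) (a.map (pre (mu γ0 (j 0))).continuous) (((Phi γ0).comp inc).comp Pac)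
      fun _ => rfl]
  exact (Jc_path _ _ fun _ => rfl).symm

end Crest.Agent.R177.ContractAux
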