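import Crest.Agent.R177.DefsCx
import Crest.Agent.R177.Contract.Obs

/-! Cell by cell constructions. -/

set_option autoImplicit false

namespace Crest.Agent.R177.ContractAux

open unitInterval Set

variable {X0 X1 X2 : Type} {K : Cx X0 X1 X2} {Y : Type} [TopologicalSpace Y]

/-- Compatible maps on the cells glue. -/
theorem exists_glue (R : Realz K Y) {Z : Type} [TopologicalSpace Z] (g : X0 → Z)
    (Se : X1 → C(I, Z)) (Sf : X2 → C(I × I, Z)) (e0 : ∀ e, Se e 0 = g (K.s e))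
    (e1 : ∀ e, Se e 1 = g (K.t e)) (f1 : ∀ f s, Sf f (s, 0) = Se (K.d2 f) s)
    (f2 : ∀ f s, Sf f (s, 1) = Se (K.d1 f) s) (f3 : ∀ f s, Sf f (1, s) = Se (K.d0 f) s)
    (f4 : ∀ f s, Sf f (0, s) = g (K.s (K.d2 f))) :
    ∃ S : C(Y, Z), (∀ v, S (R.pt v) = g v) ∧ (∀ e s, S (R.ed e s) = Se e s) ∧
      ∀ f x, S (R.tr f x) = Sf f x := by
  let E := Equiv.ofBijective _ R.bij
  let S : Y → Z := fun y => cellMap g Se Sf (E.symm y)
  have hS : ∀ w, S (cellMap R.pt R.ed R.tr w) = cellMap g Se Sf w := fun w =>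
    congrArg (cellMap g Se Sf) (E.symm_apply_apply w)
  have h0 : ∀ v, S (R.pt v) = g v := fun v => hS (Sum.inl v)
  have hI : ∀ s : I, s = 0 ∨ s = 1 ∨ s ∈ Ioo (0 : I) 1 := fun s => by
    rcases eq_or_ne s 0 with h | h
    · exact Or.inl h
    rcases eq_or_ne s 1 with h' | h'
    · exact Or.inr (Or.inl h')
    · exact Or.inr (Or.inr ⟨lt_of_le_of_ne s.2.1 h.symm, lt_of_le_of_ne s.2.2 h'⟩)
  have h1 : ∀ e s, S (R.ed e s) = Se e s := fun e s => by
    rcases hI s with rfl | rfl | h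
    · rw [R.ed_zero, h0, e0]
    · rw [R.ed_one, h0, e1]
    · exact hS (Sum.inr (Sum.inl (e, ⟨s, h⟩)))
  have h2 : ∀ f x, S (R.tr f x) = Sf f x := by
    rintro f ⟨s, t⟩
    rcases hI t with rfl | rfl | ht
    · rw [R.tr_s0, h1, f1]
    · rw [R.tr_s1, h1, f2]
    rcases hI s with rfl | rfl | hs
    · rw [R.tr_0t, h0, f4]
    · rw [R.tr_1t, h1, f3]
    · exact hS (Sum.inr (Sum.inr (f, ⟨s, hs⟩, ⟨t, ht⟩)))
  refine ⟨⟨S, continuous_iff_isClosed.2 fun C hC => R.closed _ (fun e => ?_) fun f => ?_⟩,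
    h0, h1, h2⟩
  · have : R.ed e ⁻¹' (S ⁻¹' C) = Se e ⁻¹' C := by
      ext s; simp only [mem_preimage, h1]
    rw [this]; exact hC.preimage (Se e).continuous
  · have : R.tr f ⁻¹' (S ⁻¹' C) = Sf f ⁻¹' C := by
      ext s; simp only [mem_preimage, h2]
    rw [this]; exact hC.preimage (Sf f).continuous

/-- an edge as a path -/
def edP (R : Realz K Y) (e : X1) : Path (R.pt (K.s e)) (R.pt (K.t e)) :=
  ⟨R.ed e, R.ed_zero e, R.ed_one e⟩

/-- left multiplication by a class of loops -/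
noncomputable def lmul {o : Y} (P : Cl o o) : Equiv.Perm (Cl o o) :=
  ⟨fun Q => P.trans Q, fun Q => P.symm.trans Q, symm_trans_cancel P, trans_symm_cancel P⟩

theorem flat {pt : X0 → Y} {o : Y} (c : ∀ v, Path (pt v) o) {u1 v1 u2 v2 u3 v3 : X0}
    (p : Path (pt u1) (pt v1)) (q : Path (pt u2) (pt v2)) (r : Path (pt u3) (pt v3))
    (h1 : u3 = u1) (h2 : u2 = v1) (h3 : v2 = v3) (F : C(I × I, Y)) (ha : ∀ s, F (s, 0) = p s)
    (hb : ∀ s, F (1, s) = q s) (hd : ∀ s, F (0, s) = pt u1) (hc : ∀ s, F (s, 1) = r s) :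
    lmul ((cl (c u1)).symm.trans ((cl p).trans (cl (c v1)))) *
      lmul ((cl (c u2)).symm.trans ((cl q).trans (cl (c v2))))
      = lmul ((cl (c u3)).symm.trans ((cl r).trans (cl (c v3)))) := by
  subst h1 h2 h3
  have h := square_homotopic F p q (Path.refl _) r ha hb hd hc
  rw [← cl_eq, cl_trans, cl_trans, cl_refl, Path.Homotopic.Quotient.refl_trans] at h
  ext Q
  show ((cl (c u3)).symm.trans ((cl p).trans (cl (c u2)))).trans
    (((cl (c u2)).symm.trans ((cl q).trans (cl (c v2)))).trans Q)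
    = ((cl (c u3)).symm.trans ((cl r).trans (cl (c v2)))).trans Q
  rw [← h]
  simp only [Path.Homotopic.Quotient.trans_assoc, trans_symm_cancel]

/-- Paths from the vertices to the base point which are compatible with the edges. -/
theorem exists_gamma (hs : K.Simplicial) (hc : K.Acyclic) (R : Realz K Y) (x0 : X0) :
    ∃ γ : ∀ v, Path (R.pt v) (R.pt x0),
      ∀ e, ((edP R e).trans (γ (K.t e))).Homotopic (γ (K.s e)) := by
  have hj : ∀ v, Joined (R.pt v) (R.pt x0) := fun v =>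
    hc.conn (fun v => Joined (R.pt v) (R.pt x0)) (fun e =>
      ⟨fun h => (Joined.symm ⟨edP R e⟩).trans h, fun h => Joined.trans ⟨edP R e⟩ h⟩) x0 v
      (Joined.refl _)
  let c : ∀ v, Path (R.pt v) (R.pt x0) := fun v => (hj v).somePath
  obtain ⟨h, hh⟩ := hc.sc (Equiv.Perm (Cl (R.pt x0) (R.pt x0)))
    (fun e => lmul ((cl (c (K.s e))).symm.trans ((cl (edP R e)).trans (cl (c (K.t e))))))
    (fun τ => flat c _ _ _ (hs.v0 τ) (hs.v1 τ) (hs.v2 τ) (R.tr τ) (R.tr_s0 τ) (R.tr_1t τ)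
      (R.tr_0t τ) (R.tr_s1 τ))
  have hg : ∀ v, ∃ l : Path (R.pt x0) (R.pt x0), cl l = (h v)⁻¹ (cl (Path.refl _)) := fun v =>
    Quotient.exists_rep _
  choose l hl using hg
  refine ⟨fun v => (c v).trans (l v), fun e => ?_⟩
  have h1 := hh e
  rw [← eq_inv_mul_iff_mul_eq, ← mul_inv_eq_iff_eq_mul] at h1
  have h2 := DFunLike.congr_fun h1 (cl (Path.refl _))
  rw [Equiv.Perm.mul_apply, ← hl, ← hl] at h2
  rw [← cl_eq, cl_trans, cl_trans, cl_trans, ← h2]
  show _ = (cl (c (K.s e))).trans (((cl (c (K.s e))).symm.trans ((cl (edP R e)).trans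
    (cl (c (K.t e))))).trans (cl (l (K.t e))))
  simp only [Path.Homotopic.Quotient.trans_assoc, trans_symm_cancel]

/-- first choice of sections over the edges -/
theorem exists_edge0 {x y o : Y} (p : Path x y) (γ : Path x o) (γ' : Path y o)
    (h : (p.trans γ').Homotopic γ) :
    ∃ S : C(I, C(I, Y)), (∀ s, S s 0 = p s) ∧ (∀ s, S s 1 = o) ∧ S 0 = γ.toContinuousMap ∧
      S 1 = γ'.toContinuousMap := by
  obtain ⟨F, h1, h2, h3, h4⟩ := square_fill p γ' γ (Path.refl o)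
    (h.trans (Path.Homotopic.trans_refl γ).symm)
  exact ⟨F.curry, h1, h4, ContinuousMap.ext h3, ContinuousMap.ext h2⟩

/-- the sides of the square -/
def jb : C(I, I × I) := ⟨fun s => (s, 0), by fun_prop⟩
/-- the sides of the square -/
def jr : C(I, I × I) := ⟨fun s => (1, s), by fun_prop⟩
/-- the sides of the square -/
def jt : C(I, I × I) := ⟨fun s => (s, 1), by fun_prop⟩
/-- the sides of the square -/
def jl : C(I, I × I) := ⟨fun s => (0, s), by fun_prop⟩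

variable {o : Y} {A : Type} [AddCommGroup A]

/-- the obstruction cochain -/
noncomputable def ob (J : ∀ ω ω' : Path o o, Path ω ω' → A) (R : Realz K Y)
    (γ : ∀ v, Path (R.pt v) o) (S : X1 → C(I, C(I, Y))) (k0 : ∀ e s, S e s 0 = R.ed e s)
    (k1 : ∀ e s, S e s 1 = o) (f : X2) : A :=
  Jc J ((Phi ((γ _).cast (R.tr_0t f 0) rfl)).comp
      (mkE jb (S (K.d2 f)) (fun s => (k0 _ s).trans (R.tr_s0 f s).symm) (k1 _)))
    + Jc J ((Phi ((γ _).cast (R.tr_0t f 0) rfl)).comp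
      (mkE jr (S (K.d0 f)) (fun s => (k0 _ s).trans (R.tr_1t f s).symm) (k1 _)))
    - Jc J ((Phi ((γ _).cast (R.tr_0t f 0) rfl)).comp
      (mkE jl (ContinuousMap.const _ (γ (K.s (K.d2 f))).toContinuousMap)
        (fun s => (γ _).source.trans (R.tr_0t f s).symm) (fun _ => (γ _).target)))
    - Jc J ((Phi ((γ _).cast (R.tr_0t f 0) rfl)).comp
      (mkE jt (S (K.d1 f)) (fun s => (k0 _ s).trans (R.tr_s1 f s).symm) (k1 _)))

variable {J : ∀ ω ω' : Path o o, Path ω ω' → A}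

/-- The edge sections can be chosen with vanishing obstruction. -/
theorem exists_edge (hJ : JData J) (hs : K.Simplicial) (hc : K.Acyclic) (R : Realz K Y)
    (γ : ∀ v, Path (R.pt v) o)
    (hγ : ∀ e, ((edP R e).trans (γ (K.t e))).Homotopic (γ (K.s e))) :
    ∃ (S : X1 → C(I, C(I, Y))) (k0 : ∀ e s, S e s 0 = R.ed e s) (k1 : ∀ e s, S e s 1 = o),
      (∀ e, S e 0 = (γ (K.s e)).toContinuousMap) ∧ (∀ e, S e 1 = (γ (K.t e)).toContinuousMap) ∧
      ∀ f, ob J R γ S k0 k1 f = 0 := by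
  choose S0 h0 h1 h2 h3 using fun e => exists_edge0 (edP R e) _ _ (hγ e)
  obtain ⟨α, hα⟩ := hc.h2 A (fun f => -ob J R γ S0 h0 h1 f)
  choose a ha using fun e => hJ.pre_surj (γ (K.s e)) (α e)
  choose S k0 k1 s0 s1 hS using fun e => hJ.edge (R.ed e) (R.ed_zero e) (a e) (S0 e) (h0 e)
    (h1 e) (h2 e)
  refine ⟨S, k0, k1, fun e => (s0 e).trans (h2 e), fun e => (s1 e).trans (h3 e), fun f => ?_⟩
  have e2 := hS (K.d2 f) (R.tr f) ((γ _).cast (R.tr_0t f 0) rfl) jb (fun s => (R.tr_s0 f s).symm)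
    (Path.refl _) ((γ _).cast (R.tr_0t f 0) rfl) (fun _ => rfl)
    (homotopic_congr (Path.Homotopic.refl_trans (γ (K.s (K.d2 f))))
      (trans_congr (fun _ => (R.tr_0t f 0).symm) fun _ => rfl) fun _ => rfl)
  have e0 := hS (K.d0 f) (R.tr f) ((γ _).cast (R.tr_0t f 0) rfl) jr (fun s => (R.tr_1t f s).symm)
    ⟨jb, rfl, rfl⟩ ((γ _).cast ((R.tr_1t f 0).trans (R.ed_zero _)) rfl) (fun _ => rfl)
    (homotopic_congr (hγ (K.d2 f))
      (trans_congr (fun s => (R.tr_s0 f s).symm)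
        fun t => congrArg (fun v => γ v t) (hs.v1 f).symm) fun _ => rfl)
  have e1 := hS (K.d1 f) (R.tr f) ((γ _).cast (R.tr_0t f 0) rfl) jt (fun s => (R.tr_s1 f s).symm)
    ⟨jl, rfl, rfl⟩ ((γ _).cast ((R.tr_s1 f 0).trans (R.ed_zero _)) rfl) (fun _ => rfl)
    (homotopic_congr (Path.Homotopic.refl_trans (γ (K.s (K.d2 f))))
      (trans_congr (fun s => (R.tr_0t f s).symm)
        fun t => congrArg (fun v => γ v t) (hs.v0 f).symm) fun _ => rfl)
  have h := hα f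
  rw [ha] at e0 e1 e2
  unfold ob at h ⊢
  rw [e0, e1, e2]
  rw [← sub_eq_zero] at h
  rw [← h]
  abel

/-- The sections over the triangles. -/
theorem exists_tri (hJ : JData J) (hs : K.Simplicial) (R : Realz K Y)
    (γ : ∀ v, Path (R.pt v) o) (S : X1 → C(I, C(I, Y))) (k0 : ∀ e s, S e s 0 = R.ed e s)
    (k1 : ∀ e s, S e s 1 = o) (s0 : ∀ e, S e 0 = (γ (K.s e)).toContinuousMap)
    (s1 : ∀ e, S e 1 = (γ (K.t e)).toContinuousMap) (f : X2) (hf : ob J R γ S k0 k1 f = 0) :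
    ∃ T : C(I × I, C(I, Y)), (∀ x, T x 0 = R.tr f x) ∧ (∀ x, T x 1 = o) ∧
      (∀ s, T (s, 0) = S (K.d2 f) s) ∧ (∀ s, T (1, s) = S (K.d0 f) s) ∧
      (∀ s, T (0, s) = (γ (K.s (K.d2 f))).toContinuousMap) ∧ ∀ s, T (s, 1) = S (K.d1 f) s := by
  let g : X0 → C(I, Y) := fun v => (γ v).toContinuousMap
  refine hJ.triangle _ _ _ _ _ (fun _ => rfl) (fun _ => rfl) (fun _ => rfl) (fun _ => rfl)
    ?_ ?_ ?_ ?_ ?_ hf
  · exact Subtype.ext (Prod.ext rfl (s0 _).symm)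
  · exact Subtype.ext (Prod.ext rfl ((s0 _).trans ((congrArg g (hs.v1 f)).trans (s1 _).symm)))
  · exact Subtype.ext (Prod.ext rfl ((s0 _).trans (congrArg g (hs.v0 f))))
  · exact Subtype.ext (Prod.ext rfl ((s1 _).trans ((congrArg g (hs.v2 f).symm).trans
      (s1 _).symm)))
  · exact fun t => DFunLike.congr_fun (s0 _) t

end Crest.Agent.R177.ContractAux
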