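import Crest.Agent.R177.Contract.Square
import Crest.Agent.R177.Straighten

/-! The path fibration pulled back to a square and its trivialisation. -/

set_option autoImplicit false

namespace Crest.Agent.R177.ContractAux

open unitInterval Set

variable {Y : Type} [TopologicalSpace Y]

/-- The canonical deformation of `γ` to `ν · (ν⁻¹ · γ)`, continuously in families. -/
theorem exists_K {A : Type} [TopologicalSpace A] (ν γ : C(A, C(I, Y)))
    (h : ∀ a, ν a 0 = γ a 0) :
    ∃ K : C(I × A, C(I, Y)), (∀ a, K (0, a) = γ a) ∧ (∀ u a, K (u, a) 0 = γ a 0) ∧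
      (∀ u a, K (u, a) 1 = γ a 1) ∧
      ∀ a {x y z : Y} (p : Path x y) (q : Path x z), (∀ t, p t = ν a t) → (∀ t, q t = γ a t) →
        ∀ t, K (1, a) t = (p.trans (p.symm.trans q)) t := by
  let pr : ℝ → I := projIcc 0 1 zero_le_one
  have hpr : Continuous pr := continuous_projIcc
  have hpos : ∀ u : I, (1 : ℝ) - 3 * u / 4 ≠ 0 := fun u => by linarith [u.2.2]
  let G : C((I × A) × I, Y) := ⟨fun w => if (w.2 : ℝ) ≤ 3 * (w.1.1 : ℝ) / 4
      then ν w.1.2 (pr (min (2 * (w.2 : ℝ)) (3 * w.1.1 - 4 * w.2)))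
      else γ w.1.2 (pr (((w.2 : ℝ) - 3 * w.1.1 / 4) / (1 - 3 * w.1.1 / 4))), by
    refine Continuous.if_le (by fun_prop) ?_ (by fun_prop) (by fun_prop) ?_
    · have : Continuous fun w : (I × A) × I =>
          ((w.2 : ℝ) - 3 * w.1.1 / 4) / (1 - 3 * w.1.1 / 4) :=
        Continuous.div (by fun_prop) (by fun_prop) fun w => hpos _
      fun_prop
    · intro w hw
      have e1 : pr (min (2 * (w.2 : ℝ)) (3 * w.1.1 - 4 * w.2)) = 0 :=
        projIcc_of_le_left _ ((min_le_right _ _).trans (by linarith))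
      have e2 : pr (((w.2 : ℝ) - 3 * w.1.1 / 4) / (1 - 3 * w.1.1 / 4)) = 0 :=
        projIcc_of_le_left _ (by rw [hw]; simp)
      rw [e1, e2, h]⟩
  have hG : ∀ u a t, G.curry (u, a) t = if (t : ℝ) ≤ 3 * (u : ℝ) / 4
      then ν a (pr (min (2 * (t : ℝ)) (3 * u - 4 * t)))
      else γ a (pr (((t : ℝ) - 3 * u / 4) / (1 - 3 * u / 4))) := fun _ _ _ => rfl
  refine ⟨G.curry, fun a => ?_, fun u a => ?_, fun u a => ?_, fun a x y z p q hp hq t => ?_⟩
  · ext t
    rw [hG]
    split_ifs with ht
    · have : t = 0 := Subtype.ext (le_antisymm (by simpa using ht) t.2.1)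
      subst this
      simp [pr, h]
    · simp [pr]
  · rw [hG, if_pos (by simp; linarith [u.2.1])]
    have : pr (min (2 * ((0 : I) : ℝ)) (3 * u - 4 * (0 : I))) = 0 :=
      projIcc_of_le_left _ ((min_le_left _ _).trans (by simp))
    rw [this, h]
  · rw [hG, if_neg (by simp; linarith [u.2.2])]
    have : pr ((((1 : I) : ℝ) - 3 * u / 4) / (1 - 3 * u / 4)) = 1 := by
      rw [Icc.coe_one, div_self (hpos u)]; simp [pr]
    rw [this]
  · have ep : ∀ r : ℝ, ν a (pr r) = p.extend r := fun r => (hp _).symm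
    have eq : ∀ r : ℝ, γ a (pr r) = q.extend r := fun r => (hq _).symm
    rw [hG, ep, eq, ← Path.extend_extends', Icc.coe_one]
    rcases le_total (t : ℝ) (1 / 2) with h1 | h1
    · rw [if_pos (by linarith), Path.extend_trans_of_le_half _ _ h1, min_eq_left (by linarith)]
    · rw [Path.extend_trans_of_half_le _ _ h1]
      split_ifs with h2
      · rw [Path.extend_trans_of_le_half _ _ (by linarith), Path.extend_symm_apply,
          min_eq_right (by linarith)]
        congr 1; ring
      · rw [Path.extend_trans_of_half_le _ _ (by linarith)]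
        congr 1; ring

/-- The path fibration pulled back along `F`. -/
def EF (F : C(I × I, Y)) (o : Y) : Type :=
  {z : (I × I) × C(I, Y) // z.2 0 = F z.1 ∧ z.2 1 = o}

instance (F : C(I × I, Y)) (o : Y) : TopologicalSpace (EF F o) :=
  instTopologicalSpaceSubtype

variable {F : C(I × I, Y)} {o : Y}

/-- maps into `EF` -/
def mkE {A : Type} [TopologicalSpace A] (β : C(A, I × I)) (g : C(A, C(I, Y)))
    (h0 : ∀ a, g a 0 = F (β a)) (h1 : ∀ a, g a 1 = o) : C(A, EF F o) :=
  ⟨fun a => ⟨(β a, g a), h0 a, h1 a⟩, Continuous.subtype_mk (by fun_prop) _⟩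

/-- the base point -/
def baseE (F : C(I × I, Y)) (o : Y) : C(EF F o, I × I) :=
  ⟨fun z => z.1.1, continuous_fst.comp continuous_subtype_val⟩

/-- the path -/
def pathE (F : C(I × I, Y)) (o : Y) : C(EF F o, C(I, Y)) :=
  ⟨fun z => z.1.2, continuous_snd.comp continuous_subtype_val⟩

/-- the path, with its end points -/
def toP (z : EF F o) : Path (F z.1.1) o := ⟨z.1.2, z.2.1, z.2.2⟩

/-- the straight segment from the origin -/
def seg0 (x : I × I) : Path ((0, 0) : I × I) x :=
  ⟨⟨fun t => (t * x.1, t * x.2), by fun_prop⟩, by simp, by simp⟩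

/-- the trivialising paths -/
noncomputable def mu (γ0 : Path (F (0, 0)) o) (x : I × I) : Path o (F x) :=
  γ0.symm.trans ((seg0 x).map F.continuous)

theorem continuous_mu (γ0 : Path (F (0, 0)) o) : Continuous ↿(mu γ0) := by
  refine Path.trans_continuous_family (fun _ => γ0.symm) ?_
    (fun x => (seg0 x).map F.continuous) ?_
  · exact γ0.symm.continuous.comp continuous_snd
  · exact F.continuous.comp
      (show Continuous fun p : (I × I) × I => (p.2 * p.1.1, p.2 * p.1.2) by fun_prop)

theorem continuous_mu' (γ0 : Path (F (0, 0)) o) {A : Type} [TopologicalSpace A] {β : A → I × I}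
    (hβ : Continuous β) : Continuous ↿(fun a => mu γ0 (β a)) := by
  have h1 : Continuous fun p : (I × I) × I => mu γ0 p.1 p.2 := continuous_mu γ0
  have h2 : Continuous fun p : A × I => (β p.1, p.2) := by fun_prop
  have h3 := h1.comp' h2
  exact h3

/-- the trivialisation -/
noncomputable def Phi (γ0 : Path (F (0, 0)) o) : C(EF F o, Path o o) :=
  ⟨fun z => (mu γ0 z.1.1).trans (toP z), Path.continuous_uncurry_iff.1 <|
    Path.trans_continuous_family (fun z : EF F o => mu γ0 z.1.1)
      (continuous_mu' γ0 (baseE F o).continuous) toP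
      (show Continuous fun p : EF F o × I => pathE F o p.1 p.2 by fun_prop)⟩

/-- its homotopy inverse -/
noncomputable def Psi (γ0 : Path (F (0, 0)) o) : C((I × I) × Path o o, EF F o) :=
  mkE ContinuousMap.fst (ContinuousMap.curry ⟨fun p : ((I × I) × Path o o) × I =>
    ((mu γ0 p.1.1).symm.trans p.1.2) p.2,
    Path.trans_continuous_family (fun w : (I × I) × Path o o => (mu γ0 w.1).symm)
      (Path.symm_continuous_family (fun w : (I × I) × Path o o => mu γ0 w.1)
        (continuous_mu' γ0 continuous_fst))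
      (fun w => w.2) (Path.continuous_uncurry_iff.2 continuous_snd)⟩)
    (fun w => ((mu γ0 w.1).symm.trans w.2).source) (fun w => ((mu γ0 w.1).symm.trans w.2).target)

theorem mu_homotopic (γ0 : Path (F (0, 0)) o) {x : I × I} (k : Path ((0, 0) : I × I) x)
    (ν : Path (F x) o) (h : ((k.map F.continuous).trans ν).Homotopic γ0) :
    (mu γ0 x).Homotopic ν.symm := by
  have h1 := (sq_paths_homotopic (seg0 x) k).map F
  rw [← cl_eq] at h h1 ⊢
  apply trans_right_cancel (Q := cl ν)
  rw [mu, cl_trans, h1, Path.Homotopic.Quotient.trans_assoc, ← cl_trans, h, cl_symm, cl_symm]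
  simp

theorem phi_faithful (γ0 : Path (F (0, 0)) o) {z : EF F o} (l : Path z z)
    (h : (l.map (Phi γ0).continuous).Homotopic (Path.refl _)) : l.Homotopic (Path.refl z) := by
  obtain ⟨K, K0, Ks, Kt, K1⟩ := exists_K (A := EF F o)
    (ContinuousMap.curry ⟨fun p : EF F o × I => (mu γ0 p.1.1.1).symm p.2,
      Path.symm_continuous_family (fun w : EF F o => mu γ0 w.1.1)
        (continuous_mu' γ0 (baseE F o).continuous)⟩) (pathE F o) (fun w => ((mu γ0 w.1.1).symm.source).trans w.2.1.symm)
  let lc : C(I × I, EF F o) := l.toContinuousMap.comp ContinuousMap.snd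
  let H : C(I × I, EF F o) := mkE ((baseE F o).comp lc)
    (K.comp (ContinuousMap.fst.prodMk lc)) (fun w => (Ks _ _).trans (lc w).2.1)
    (fun w => (Kt _ _).trans (lc w).2.2)
  have h1 := (sq_paths_homotopic (l.map (baseE F o).continuous) (Path.refl _))
  obtain ⟨H1⟩ := h1
  obtain ⟨H2⟩ := h
  have h3 : ((l.map (baseE F o).continuous).prod (l.map (Phi γ0).continuous)).Homotopic
      ((Path.refl _).prod (Path.refl _)) := ⟨Path.Homotopic.prodHomotopy H1 H2⟩
  refine null_of_free H l _ (fun t => ?_) (fun t => ?_) (fun s => ?_)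
    ((h3.map (Psi γ0)).trans (homotopic_of_eq fun _ => rfl))
  · exact Subtype.ext (Prod.ext rfl (K0 _))
  · refine Subtype.ext (Prod.ext rfl (ContinuousMap.ext fun τ => ?_))
    have := K1 (l t) (mu γ0 (l t).1.1).symm (toP (l t)) (fun _ => rfl) (fun _ => rfl) τ
    rw [Path.symm_symm] at this
    exact this
  · have : lc (s, 0) = lc (s, 1) := l.source.trans l.target.symm
    refine Subtype.ext (Prod.ext ?_ ?_)
    · exact congrArg (baseE F o) this
    · exact congrArg (fun w => K (s, w)) this

/-- every path over the bottom edge is homotopic to a section -/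
theorem exists_section_path {z0 z1 : EF F o} (P : Path z0 z1) (h0 : z0.1.1 = (0, 0))
    (h1 : z1.1.1 = (1, 0)) : ∃ P' : Path z0 z1, P.Homotopic P' ∧ ∀ s, (P' s).1.1 = (s, 0) := by
  let pc : C(I × I, EF F o) := P.toContinuousMap.comp ContinuousMap.snd
  let Q : Path ((0, 0) : I × I) (1, 0) := ⟨⟨fun s => (s, 0), by fun_prop⟩, rfl, rfl⟩
  obtain ⟨H⟩ := sq_paths_homotopic ((P.map (baseE F o).continuous).cast h0.symm h1.symm) Q
  obtain ⟨γ', g0, g1, g2⟩ := straighten F ((baseE F o).comp pc) H.toContinuousMap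
    ((pathE F o).comp pc) (fun w => (pc w).2.1)
  let G : C(I × I, EF F o) := mkE H.toContinuousMap γ' g0 (fun w => (g1 w).trans (pc w).2.2)
  have hG : ∀ w, H w = baseE F o (pc w) → G w = pc w := fun w hw =>
    Subtype.ext (Prod.ext hw (g2 w hw))
  have hs : ∀ u, G (u, 0) = z0 := fun u =>
    (hG _ ((H.source u).trans (h0.symm.trans (congrArg (baseE F o) P.source.symm)))).trans P.source
  have ht : ∀ u, G (u, 1) = z1 := fun u =>
    (hG _ ((H.target u).trans (h1.symm.trans (congrArg (baseE F o) P.target.symm)))).trans P.target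
  refine ⟨⟨⟨fun s => G (1, s), by fun_prop⟩, hs 1, ht 1⟩,
    ⟨⟨⟨G, fun s => hG _ (H.apply_zero s), fun s => rfl⟩, ?_⟩⟩, fun s => H.apply_one s⟩
  rintro u s (rfl | rfl)
  · exact (hs u).trans P.source.symm
  · exact (ht u).trans P.target.symm

/-- a square in `EF` can be straightened to a section -/
theorem exists_section_square (G : C(I × I, EF F o)) :
    ∃ S : C(I × I, C(I, Y)), (∀ x, S x 0 = F x) ∧ (∀ x, S x 1 = o) ∧
      ∀ x, (G x).1.1 = x → S x = (G x).1.2 := by
  obtain ⟨γ', g0, g1, g2⟩ := straighten F ((baseE F o).comp G) (ContinuousMap.id _)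
    ((pathE F o).comp G) (fun w => (G w).2.1)
  exact ⟨γ', g0, fun x => (g1 x).trans (G x).2.2, fun x hx => g2 x hx.symm⟩

end Crest.Agent.R177.ContractAux
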