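import Mathlib

/-! Squares and path homotopies. -/

set_option autoImplicit false

namespace Crest.Agent.R177.ContractAux

open unitInterval

instance contractibleI : ContractibleSpace I :=
  (convex_Icc (0 : ℝ) 1).contractibleSpace ⟨0, by simp⟩

theorem sq_paths_homotopic {x y : I × I} (p q : Path x y) : p.Homotopic q :=
  SimplyConnectedSpace.paths_homotopic p q

variable {Z : Type*} [TopologicalSpace Z]

theorem homotopic_of_eq {x y : Z} {p q : Path x y} (h : ∀ t, p t = q t) : p.Homotopic q := by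
  have : p = q := Path.ext (funext h)
  rw [this]

/-- The boundary of a square commutes up to homotopy. -/
theorem square_homotopic (F : C(I × I, Z)) {z00 z10 z01 z11 : Z} (a : Path z00 z10)
    (b : Path z10 z11) (d : Path z00 z01) (c : Path z01 z11) (ha : ∀ s, F (s, 0) = a s)
    (hb : ∀ t, F (1, t) = b t) (hd : ∀ t, F (0, t) = d t) (hc : ∀ s, F (s, 1) = c s) :
    (a.trans b).Homotopic (d.trans c) := by
  have h00 : F (0, 0) = z00 := by rw [ha]; simp
  have h10 : F (1, 0) = z10 := by rw [ha]; simp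
  have h01 : F (0, 1) = z01 := by rw [hc]; simp
  have h11 : F (1, 1) = z11 := by rw [hc]; simp
  subst h00 h10 h01 h11
  let a0 : Path ((0, 0) : I × I) (1, 0) := ⟨⟨fun s => (s, 0), by fun_prop⟩, rfl, rfl⟩
  let b0 : Path ((1, 0) : I × I) (1, 1) := ⟨⟨fun s => (1, s), by fun_prop⟩, rfl, rfl⟩
  let d0 : Path ((0, 0) : I × I) (0, 1) := ⟨⟨fun s => (0, s), by fun_prop⟩, rfl, rfl⟩
  let c0 : Path ((0, 1) : I × I) (1, 1) := ⟨⟨fun s => (s, 1), by fun_prop⟩, rfl, rfl⟩
  have := (sq_paths_homotopic (a0.trans b0) (d0.trans c0)).map F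
  rw [Path.map_trans, Path.map_trans] at this
  have ea : a0.map F.continuous = a := Path.ext (funext ha)
  have eb : b0.map F.continuous = b := Path.ext (funext hb)
  have ed : d0.map F.continuous = d := Path.ext (funext hd)
  have ec : c0.map F.continuous = c := Path.ext (funext hc)
  rwa [ea, eb, ed, ec] at this

/-- The collapse of the square onto itself along which a path homotopy becomes a square. -/
noncomputable def qmap : C(I × I, I × I) where
  toFun p :=
    (⟨(1 - p.1) * min (2 * (p.2 : ℝ)) 1 + p.1 * max (2 * (p.2 : ℝ) - 1) 0, by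
        have h1 := p.1.2.1; have h2 := p.1.2.2; have h3 := p.2.2.1; have h4 := p.2.2.2
        have h5 : 0 ≤ min (2 * (p.2 : ℝ)) 1 := le_min (by linarith) zero_le_one
        have h6 := min_le_right (2 * (p.2 : ℝ)) 1
        have h7 := le_max_right (2 * (p.2 : ℝ) - 1) 0
        have h8 : max (2 * (p.2 : ℝ) - 1) 0 ≤ 1 := max_le (by linarith) zero_le_one
        constructor <;> nlinarith⟩,
     ⟨(1 - p.1) * max (2 * (p.2 : ℝ) - 1) 0 + p.1 * min (2 * (p.2 : ℝ)) 1, by
        have h1 := p.1.2.1; have h2 := p.1.2.2; have h3 := p.2.2.1; have h4 := p.2.2.2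
        have h5 : 0 ≤ min (2 * (p.2 : ℝ)) 1 := le_min (by linarith) zero_le_one
        have h6 := min_le_right (2 * (p.2 : ℝ)) 1
        have h7 := le_max_right (2 * (p.2 : ℝ) - 1) 0
        have h8 : max (2 * (p.2 : ℝ) - 1) 0 ≤ 1 := max_le (by linarith) zero_le_one
        constructor <;> nlinarith⟩)
  continuous_toFun := by fun_prop

theorem min_add_max_two (τ : ℝ) : min (2 * τ) 1 + max (2 * τ - 1) 0 = 2 * τ := by
  rcases le_total (2 * τ) 1 with h | h
  · rw [min_eq_left h, max_eq_right (by linarith)]; ring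
  · rw [min_eq_right h, max_eq_left (by linarith)]; ring

theorem qmap_surjective : Function.Surjective qmap := by
  rintro ⟨s, t⟩
  have h1 := s.2.1; have h2 := s.2.2; have h3 := t.2.1; have h4 := t.2.2
  rcases le_total ((s : ℝ) + t) 1 with h | h
  · refine ⟨(⟨t / (s + t), div_nonneg h3 (by linarith), div_le_one_of_le₀ (by linarith)
      (by linarith)⟩, ⟨(s + t) / 2, by linarith, by linarith⟩), ?_⟩
    have e1 : min (2 * (((s : ℝ) + t) / 2)) 1 = s + t := by rw [min_eq_left (by linarith)]; ring
    have e2 : max (2 * (((s : ℝ) + t) / 2) - 1) 0 = 0 := max_eq_right (by linarith)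
    by_cases h0 : (s : ℝ) + t = 0
    · have hs : (s : ℝ) = 0 := by linarith
      have ht : (t : ℝ) = 0 := by linarith
      ext <;> simp [qmap, hs, ht]
    · ext <;> simp only [qmap, ContinuousMap.coe_mk, e1, e2] <;> field_simp <;> ring
  · refine ⟨(⟨(1 - s) / (2 - s - t), div_nonneg (by linarith) (by linarith),
      div_le_one_of_le₀ (by linarith) (by linarith)⟩, ⟨(s + t) / 2, by linarith, by linarith⟩), ?_⟩
    have e1 : min (2 * (((s : ℝ) + t) / 2)) 1 = 1 := min_eq_right (by linarith)
    have e2 : max (2 * (((s : ℝ) + t) / 2) - 1) 0 = s + t - 1 := by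
      rw [max_eq_left (by linarith)]; ring
    by_cases h0 : 2 - (s : ℝ) - t = 0
    · have hs : (s : ℝ) = 1 := by linarith
      have ht : (t : ℝ) = 1 := by linarith
      ext <;> simp [qmap, hs, ht] <;> norm_num
    · ext <;> simp only [qmap, ContinuousMap.coe_mk, e1, e2] <;> field_simp <;> ring

theorem qmap_eq {p p' : I × I} (h : qmap p = qmap p') :
    p.2 = p'.2 ∧ (p.1 = p'.1 ∨ p.2 = 0 ∨ p.2 = 1) := by
  have h1 := congrArg (fun z : I × I => (z.1 : ℝ)) h
  have h2 := congrArg (fun z : I × I => (z.2 : ℝ)) h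
  simp only [qmap, ContinuousMap.coe_mk] at h1 h2
  have e := min_add_max_two (p.2 : ℝ)
  have e' := min_add_max_two (p'.2 : ℝ)
  have h3 : (p.2 : ℝ) = p'.2 := by linarith
  refine ⟨Subtype.ext h3, ?_⟩
  rw [← h3] at h1
  have h4 : ((p.1 : ℝ) - p'.1) * (min (2 * (p.2 : ℝ)) 1 - max (2 * (p.2 : ℝ) - 1) 0) = 0 := by
    linarith
  rcases mul_eq_zero.1 h4 with h5 | h5
  · exact Or.inl (Subtype.ext (by linarith))
  · right
    rcases le_total (2 * (p.2 : ℝ)) 1 with h | h
    · rw [min_eq_left h, max_eq_right (by linarith)] at h5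
      exact Or.inl (Subtype.ext (show (p.2 : ℝ) = 0 by linarith))
    · rw [min_eq_right h, max_eq_left (by linarith)] at h5
      exact Or.inr (Subtype.ext (show (p.2 : ℝ) = 1 by linarith))

/-- A commuting boundary can be filled by a square. -/
theorem square_fill {z00 z10 z01 z11 : Z} (a : Path z00 z10)
    (b : Path z10 z11) (d : Path z00 z01) (c : Path z01 z11)
    (h : (a.trans b).Homotopic (d.trans c)) :
    ∃ F : C(I × I, Z), (∀ s, F (s, 0) = a s) ∧ (∀ t, F (1, t) = b t) ∧ (∀ t, F (0, t) = d t) ∧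
      ∀ s, F (s, 1) = c s := by
  obtain ⟨H⟩ := h
  have hq : Topology.IsQuotientMap qmap :=
    qmap.continuous.isClosedMap.isQuotientMap qmap.continuous qmap_surjective
  have hf : Function.FactorsThrough H.toContinuousMap qmap := by
    rintro ⟨u, τ⟩ ⟨u', τ'⟩ hp
    obtain ⟨h1, h2⟩ := qmap_eq hp
    simp only at h1 h2
    subst h1
    rcases h2 with h2 | h2 | h2
    · rw [h2]
    · subst h2; exact (H.source u).trans (H.source u').symm
    · subst h2; exact (H.target u).trans (H.target u').symm
  have key : ∀ p, hq.lift H.toContinuousMap hf (qmap p) = H p := fun p =>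
    DFunLike.congr_fun (hq.lift_comp H.toContinuousMap hf) p
  have half : ∀ s : I, (s : ℝ) / 2 ∈ I := fun s => ⟨by linarith [s.2.1], by linarith [s.2.2]⟩
  have half' : ∀ s : I, (1 + (s : ℝ)) / 2 ∈ I := fun s =>
    ⟨by linarith [s.2.1], by linarith [s.2.2]⟩
  have t1 : ∀ {x y z : Z} (p : Path x y) (q : Path y z) (s : I),
      (p.trans q) ⟨_, half s⟩ = p s := by
    intro x y z p q s
    rw [Path.trans_apply, dif_pos (by simp only; linarith [s.2.2])]
    congr 1; ext; simp only; ring
  have t2 : ∀ {x y z : Z} (p : Path x y) (q : Path y z) (s : I),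
      (p.trans q) ⟨_, half' s⟩ = q s := by
    intro x y z p q s
    rw [← Path.extend_extends', Path.extend_trans_of_half_le _ _ (by simp only; linarith [s.2.1]),
      ← Path.extend_extends']
    congr 1; simp only; ring
  have m1 : ∀ s : I, min (2 * ((s : ℝ) / 2)) 1 = s := fun s => by
    rw [min_eq_left (by linarith [s.2.2])]; ring
  have m2 : ∀ s : I, max (2 * ((s : ℝ) / 2) - 1) 0 = 0 := fun s =>
    max_eq_right (by linarith [s.2.2])
  have m3 : ∀ s : I, min (2 * ((1 + (s : ℝ)) / 2)) 1 = 1 := fun s =>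
    min_eq_right (by linarith [s.2.1])
  have m4 : ∀ s : I, max (2 * ((1 + (s : ℝ)) / 2) - 1) 0 = s := fun s => by
    rw [max_eq_left (by linarith [s.2.1])]; ring
  refine ⟨hq.lift H.toContinuousMap hf, fun s => ?_, fun s => ?_, fun s => ?_, fun s => ?_⟩
  · have : ((s, 0) : I × I) = qmap (0, ⟨_, half s⟩) := by
      ext <;> simp only [qmap, ContinuousMap.coe_mk, m1, m2] <;> simp
    rw [this, key, H.apply_zero]; exact t1 _ _ _
  · have : ((1, s) : I × I) = qmap (0, ⟨_, half' s⟩) := by
      ext <;> simp only [qmap, ContinuousMap.coe_mk, m3, m4] <;> simp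
    rw [this, key, H.apply_zero]; exact t2 _ _ _
  · have : ((0, s) : I × I) = qmap (1, ⟨_, half s⟩) := by
      ext <;> simp only [qmap, ContinuousMap.coe_mk, m1, m2] <;> simp
    rw [this, key, H.apply_one]; exact t1 _ _ _
  · have : ((s, 1) : I × I) = qmap (1, ⟨_, half' s⟩) := by
      ext <;> simp only [qmap, ContinuousMap.coe_mk, m3, m4] <;> simp
    rw [this, key, H.apply_one]; exact t2 _ _ _

/-- homotopy classes of paths -/
abbrev Cl (x y : Z) := Path.Homotopic.Quotient x y

/-- the class of a path -/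
abbrev cl {x y : Z} (p : Path x y) : Cl x y := Path.Homotopic.Quotient.mk p

theorem cl_eq {x y : Z} {p q : Path x y} : cl p = cl q ↔ p.Homotopic q :=
  Path.Homotopic.Quotient.eq

theorem cl_trans {x y z : Z} (p : Path x y) (q : Path y z) :
    cl (p.trans q) = (cl p).trans (cl q) := rfl

theorem cl_symm {x y : Z} (p : Path x y) : cl p.symm = (cl p).symm := rfl

theorem cl_refl (x : Z) : cl (Path.refl x) = Path.Homotopic.Quotient.refl x := rfl

theorem symm_trans_cancel {x y z : Z} (P : Cl x y) (Q : Cl y z) :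
    P.symm.trans (P.trans Q) = Q := by
  rw [← Path.Homotopic.Quotient.trans_assoc]; simp

theorem trans_symm_cancel {x y z : Z} (P : Cl y x) (Q : Cl y z) :
    P.trans (P.symm.trans Q) = Q := by
  rw [← Path.Homotopic.Quotient.trans_assoc]; simp

theorem trans_right_cancel {x y z : Z} {P P' : Cl x y} {Q : Cl y z}
    (h : P.trans Q = P'.trans Q) : P = P' := by
  have := congrArg (fun R : Cl x z => R.trans Q.symm) h
  simpa using this

/-- A loop that is freely homotopic to a null-homotopic loop is null-homotopic. -/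
theorem null_of_free (H : C(I × I, Z)) {x y : Z} (p : Path x x) (q : Path y y)
    (h0 : ∀ t, H (0, t) = p t) (h1 : ∀ t, H (1, t) = q t) (hl : ∀ s, H (s, 0) = H (s, 1))
    (hq : q.Homotopic (Path.refl y)) : p.Homotopic (Path.refl x) := by
  let k : Path x y := ⟨⟨fun s => H (s, 0), by fun_prop⟩, by simp [h0], by simp [h1]⟩
  have := square_homotopic H k q p k (fun _ => rfl) h1 h0 (fun s => (hl s).symm)
  rw [← cl_eq] at this hq ⊢
  rw [cl_trans, cl_trans, hq] at this
  apply trans_right_cancel (Q := cl k)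
  rw [← this, cl_refl, cl_refl]
  simp

theorem homotopic_of_loop {x y : Z} {p q : Path x y}
    (h : (p.trans q.symm).Homotopic (Path.refl x)) : p.Homotopic q := by
  rw [← cl_eq] at h ⊢
  apply trans_right_cancel (Q := (cl q).symm)
  rw [cl_trans, cl_symm, cl_refl] at h
  rw [h]; simp

/-- A homotopy of paths is a path in the space of paths. -/
theorem exists_path_of_homotopic {x y : Z} {p q : Path x y} (h : p.Homotopic q) :
    Nonempty (Path p q) := by
  obtain ⟨H⟩ := h
  exact ⟨⟨⟨fun u => H.eval u, Path.continuous_uncurry_iff.1 H.continuous⟩, H.eval_zero,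
    H.eval_one⟩⟩

end Crest.Agent.R177.ContractAux
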